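import Vale.Agent.P129.H853.Code

/-!
# P129, part G2: compactness for special sequences

A limit of coded sequences along an ultrafilter. If the sequences have common bounded weights
arbitrarily far out, attached to nodes whose supports meet fixed finite sets, then they converge
nodewise (in the discrete sense) to an infinite coded sequence.
-/

open Filter

namespace Vale.Agent.P129.H449

open H630 H853

/-- If one of finitely many alternatives holds along an ultrafilter, then one of them holds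
along the ultrafilter. -/
theorem exists_mem_eventually {τ β : Type*} (U : Ultrafilter τ) {S : Set β} (hS : S.Finite)
    {P : β → τ → Prop} (h : ∀ᶠ l in U, ∃ b ∈ S, P b l) : ∃ b ∈ S, ∀ᶠ l in U, P b l := by
  have h1 : {l | ∃ b ∈ S, P b l} ∈ U := h
  have h2 : {l | ∃ b ∈ S, P b l} = ⋃ b ∈ S, {l | P b l} := by
    ext l
    simp
  rw [h2, Ultrafilter.finite_biUnion_mem_iff hS] at h1
  obtain ⟨b, hb, h3⟩ := h1
  exact ⟨b, hb, h3⟩

variable {ι : Type*} [LinearOrder ι] {F : ℕ → ι → Finset ι} {τ : Type*}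

/-- **Limits of special sequences.** -/
theorem exists_limit (hF : Coherent F) (U : Ultrafilter τ) (Ψ : τ → ℕ → Nd ι) (n : τ → ℕ)
    (hc : ∀ᶠ l in U, Coded F (Ψ l) (n l))
    (h : ∀ k0, ∃ (B : ℕ) (S : Finset ι), ∀ᶠ l in U, ∃ k, k0 ≤ k ∧ k < n l ∧ (Ψ l k).w ≤ B ∧
      ∃ ξ ∈ S, ξ ∈ (Ψ l k).φ.support) :
    ∃ Φ : ℕ → Nd ι, ∀ N, ∀ᶠ l in U, N ≤ n l ∧ ∀ k < N, Ψ l k = Φ k := by
  -- the weights converge
  have hw : ∀ k, ∃ w, ∀ᶠ l in U, k < n l ∧ (Ψ l k).w = w := by
    intro k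
    obtain ⟨B, S, hB⟩ := h k
    have h1 : ∀ᶠ l in U, ∃ w ∈ Set.Iic B, k < n l ∧ (Ψ l k).w = w := by
      filter_upwards [hB, hc] with l hl hcl
      obtain ⟨k', hk', hn, hwB, -⟩ := hl
      refine ⟨(Ψ l k).w, ?_, by omega, rfl⟩
      rcases hk'.eq_or_lt with rfl | hlt
      · exact hwB
      · exact (hcl.w_lt_w hlt hn).le.trans hwB
    obtain ⟨w, -, hw⟩ := exists_mem_eventually U (Set.finite_Iic B) h1
    exact ⟨w, hw⟩
  choose w hw using hw
  -- the levels converge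
  have hp : ∀ k, ∃ p, ∀ᶠ l in U, (Ψ l k).p = p := by
    intro k
    have h1 : ∀ᶠ l in U, ∃ p ∈ Set.Iic (w (k + 1)), (Ψ l k).p = p := by
      filter_upwards [hw (k + 1), hc] with l hl hcl
      refine ⟨(Ψ l k).p, ?_, rfl⟩
      rw [Set.mem_Iic, ← hl.2]
      exact (hcl.p_lt_w (Nat.lt_succ_self k) hl.1).le
    obtain ⟨p, -, hp⟩ := exists_mem_eventually U (Set.finite_Iic _) h1
    exact ⟨p, hp⟩
  choose p hp using hp
  -- the functionals converge
  have hf : ∀ k, ∃ f, ∀ᶠ l in U, (Ψ l k).φ = f := by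
    intro k
    obtain ⟨B, S, hB⟩ := h (k + 1)
    have h1 : ∀ᶠ l in U, ∃ x ∈ ((Finset.range (B + 1) ×ˢ S : Finset (ℕ × ι)) : Set (ℕ × ι)),
        k + 1 ≤ x.1 ∧ x.1 < n l ∧ x.2 ∈ (Ψ l x.1).φ.support := by
      filter_upwards [hB, hc] with l hl hcl
      obtain ⟨k', hk', hn, hwB, ξ, hξ, hξ'⟩ := hl
      refine ⟨(k', ξ), ?_, hk', hn, hξ'⟩
      have := hcl.le_w hn
      rw [Finset.mem_coe, Finset.mem_product, Finset.mem_range]
      exact ⟨by omega, hξ⟩
    obtain ⟨⟨k', ξ⟩, -, h3⟩ := exists_mem_eventually U (Finset.finite_toSet _) h1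
    have h4 : ∀ᶠ l in U, ((k + 1 ≤ k' ∧ k' < n l ∧ ξ ∈ (Ψ l k').φ.support) ∧
        (k' + 1 < n l ∧ (Ψ l (k' + 1)).w = w (k' + 1))) ∧ Coded F (Ψ l) (n l) :=
      (h3.and (hw (k' + 1))).and hc
    obtain ⟨l0, ⟨⟨hk0, hn0, hξ0⟩, hn0', hw0⟩, hc0⟩ := h4.exists
    refine ⟨(Ψ l0 k).φ, ?_⟩
    filter_upwards [h4] with l hl
    obtain ⟨⟨⟨-, hn, hξ⟩, hn', hwl⟩, hcl⟩ := hl
    have hcode : code F (Ψ l) (k' + 1) = code F (Ψ l0) (k' + 1) :=
      (hcl.of_w_eq hc0 hn' hn0' (hwl.trans hw0.symm)).2.1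
    have h5 := hcl.agree hF hc0 hn'.le hn0'.le hcode
      (hcl.mem_dom hn'.le (Nat.lt_succ_self k') hξ) (hc0.mem_dom hn0'.le (Nat.lt_succ_self k') hξ0)
      k (by omega)
    ext η
    rcases le_or_gt η ξ with hη | hη
    · exact h5 η hη
    · have e1 : (Ψ l k).φ η = 0 := by
        by_contra hne
        exact absurd (hcl.bef (show k < k' by omega) hn η (Finsupp.mem_support_iff.2 hne) ξ hξ)
          (not_lt.2 hη.le)
      have e2 : (Ψ l0 k).φ η = 0 := by
        by_contra hne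
        exact absurd (hc0.bef (show k < k' by omega) hn0 η (Finsupp.mem_support_iff.2 hne) ξ hξ0)
          (not_lt.2 hη.le)
      rw [e1, e2]
  choose f hf using hf
  -- the limit
  refine ⟨fun k => ⟨f k, w k, p k⟩, fun N => ?_⟩
  induction N with
  | zero => exact Eventually.of_forall fun l => ⟨Nat.zero_le _, fun k hk => absurd hk (by omega)⟩
  | succ N ih =>
    filter_upwards [ih, hw N, hp N, hf N] with l hl hwl hpl hfl
    refine ⟨by omega, fun k hk => ?_⟩
    rcases (show k ≤ N by omega).eq_or_lt with rfl | hlt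
    · cases hx : Ψ l k
      rw [hx] at hwl hpl hfl
      simp only at hwl hpl hfl
      rw [hfl, hpl, hwl.2]
    · exact hl.2 k hlt

/-- The limit of coded sequences is an infinite coded sequence. -/
theorem infCoded_of_eventually (U : Ultrafilter τ) {Ψ : τ → ℕ → Nd ι} {n : τ → ℕ}
    (hc : ∀ᶠ l in U, Coded F (Ψ l) (n l)) {Φ : ℕ → Nd ι}
    (hΦ : ∀ N, ∀ᶠ l in U, N ≤ n l ∧ ∀ k < N, Ψ l k = Φ k) : InfCoded F Φ := by
  intro j
  obtain ⟨l, hl, hcl⟩ := ((hΦ (j + 1)).and hc).exists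
  exact (hcl j (by omega)).congr fun i hi => hl.2 i (by omega)

/-- **Compactness**: if coded sequences hit the sets `S i` through nodes with weights in the
disjoint windows `(a i, b i]`, for infinitely many `i`, then they converge along the
ultrafilter. -/
theorem compactness (hF : Coherent F) (U : Ultrafilter τ) (Ψ : τ → ℕ → Nd ι) (n : τ → ℕ)
    (hc : ∀ᶠ l in U, Coded F (Ψ l) (n l)) (S : ℕ → Finset ι) (a b : ℕ → ℕ)
    (hab : ∀ i, a i ≤ b i) (hba : ∀ i, b i ≤ a (i + 1)) (H : Set ℕ) (hH : H.Infinite)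
    (hit : ∀ i ∈ H, ∀ᶠ l in U, ∃ k < n l, a i < (Ψ l k).w ∧ (Ψ l k).w ≤ b i ∧
      ∃ ξ ∈ (Ψ l k).φ.support, ξ ∈ S i) :
    ∃ Φ : ℕ → Nd ι, ∀ k, ∀ᶠ l in U, k ≤ n l ∧ ∀ j < k, Ψ l j = Φ j := by
  refine exists_limit hF U Ψ n hc fun k0 => ?_
  -- `k0 + 1` elements of `H`
  obtain ⟨t, htH, htc⟩ := hH.exists_subset_card_eq (k0 + 1)
  have hmono : ∀ i j, i ≤ j → b i ≤ b j := by
    intro i j hij
    induction j, hij using Nat.le_induction with
    | base => exact le_rfl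
    | succ j _ ih => exact ih.trans ((hba j).trans (hab (j + 1)))
  have hmono' : ∀ i j, i < j → b i ≤ a j := by
    intro i j hij
    obtain ⟨j, rfl⟩ : ∃ j', j = j' + 1 := ⟨j - 1, by omega⟩
    exact (hmono i j (by omega)).trans (hba j)
  refine ⟨b (t.sup id), t.biUnion S, ?_⟩
  have hall : ∀ᶠ l in U, ∀ i ∈ t, ∃ k < n l, a i < (Ψ l k).w ∧ (Ψ l k).w ≤ b i ∧
      ∃ ξ ∈ (Ψ l k).φ.support, ξ ∈ S i :=
    (Filter.eventually_all_finset t).2 fun i hi => hit i (htH hi)
  filter_upwards [hall, hc] with l hl hcl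
  choose! g hg1 hg2 hg3 ξ hξ hξS using hl
  -- the numbers `g i` are different, so one of them is `≥ k0`
  have hinj : Set.InjOn g t := by
    intro i hi j hj hgij
    by_contra hne
    rcases lt_or_gt_of_ne hne with h1 | h1
    · have h2 := hg3 i hi
      have h3 := hg2 j hj
      rw [← hgij] at h3
      exact absurd (h2.trans (hmono' i j h1)) (not_le.2 h3)
    · have h2 := hg3 j hj
      have h3 := hg2 i hi
      rw [hgij] at h3
      exact absurd (h2.trans (hmono' j i h1)) (not_le.2 h3)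
  have hex : ∃ i ∈ t, k0 ≤ g i := by
    by_contra hcon
    push Not at hcon
    have h1 : (t.image g) ⊆ Finset.range k0 := by
      intro x hx
      obtain ⟨i, hi, rfl⟩ := Finset.mem_image.1 hx
      exact Finset.mem_range.2 (hcon i hi)
    have h2 := Finset.card_le_card h1
    rw [Finset.card_image_of_injOn hinj, Finset.card_range, htc] at h2
    omega
  obtain ⟨i, hi, hk0⟩ := hex
  exact ⟨g i, hk0, hg1 i hi, (hg3 i hi).trans (hmono i _ (Finset.le_sup (f := id) hi)), ξ i hi,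
    Finset.mem_biUnion.2 ⟨i, hi, hξS i hi⟩, hξ i hi⟩

end Vale.Agent.P129.H449
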