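import Mathlib

/-!
# P129, part G1: a diagonal argument with iterated limits along an ultrafilter
-/

open Filter

namespace Vale.Agent.P129.H449

/-- the iterated limit of a property of finite sets of natural numbers -/
def Itr (U : Filter ℕ) (P : Finset ℕ → Prop) : ℕ → Finset ℕ → Prop
  | 0, s => P s
  | k + 1, s => ∀ᶠ i in U, Itr U P k (insert i s)

/-- If the iterated limit of `P` over sets with `k` elements does not hold, then there is a
subsequence such that `P` fails for all sets with `k` elements of the subsequence. -/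
theorem exists_subseq_of_not_itr (U : Ultrafilter ℕ) (hU : ∀ i0, ∀ᶠ i in (U : Filter ℕ), i0 < i)
    (P : Finset ℕ → Prop) (k : ℕ) (h : ¬ Itr U P k ∅) :
    ∃ ν : ℕ → ℕ, StrictMono ν ∧ ∀ s : Finset ℕ, (s : Set ℕ) ⊆ Set.range ν → s.card = k → ¬ P s := by
  classical
  -- the invariant
  let Inv : Finset ℕ → Prop := fun C => ∀ s ⊆ C, ∀ j, s.card + j = k → ¬ Itr U P j s
  have h0 : Inv ∅ := by
    intro s hs j hj
    rw [Finset.subset_empty.1 hs] at hj ⊢
    rw [Finset.card_empty, Nat.zero_add] at hj
    rwa [hj]
  have hstep : ∀ C : {C : Finset ℕ // Inv C}, ∃ i, (∀ c ∈ C.1, c < i) ∧ Inv (insert i C.1) := by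
    rintro ⟨C, hC⟩
    have h1 : ∀ᶠ i in (U : Filter ℕ), ∀ s ∈ C.powerset, ∀ j ∈ Finset.range (k + 1), s.card + (j + 1) = k →
        ¬ Itr U P j (insert i s) := by
      refine (Filter.eventually_all_finset _).2 fun s hs => ?_
      refine (Filter.eventually_all_finset _).2 fun j _ => ?_
      by_cases hj : s.card + (j + 1) = k
      · have h2 := hC s (Finset.mem_powerset.1 hs) (j + 1) hj
        have h3 : ∀ᶠ i in (U : Filter ℕ), ¬ Itr U P j (insert i s) := Ultrafilter.eventually_not.2 h2
        exact h3.mono fun i hi _ => hi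
      · exact Eventually.of_forall fun i hi => absurd hi hj
    obtain ⟨i, hi, hlt⟩ := (h1.and (hU (C.sup id))).exists
    have hlt' : ∀ c ∈ C, c < i := fun c hc => (Finset.le_sup (f := id) hc).trans_lt hlt
    refine ⟨i, hlt', fun s' hs' j hj => ?_⟩
    by_cases his : i ∈ s'
    · have h4 : s'.erase i ⊆ C := by
        intro c hc
        rw [Finset.mem_erase] at hc
        rcases Finset.mem_insert.1 (hs' hc.2) with h5 | h5
        · exact absurd h5 hc.1
        · exact h5
      have h5 : (s'.erase i).card + 1 = s'.card := Finset.card_erase_add_one his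
      have h6 := hi (s'.erase i) (Finset.mem_powerset.2 h4) j (Finset.mem_range.2 (by omega))
        (by omega)
      rwa [Finset.insert_erase his] at h6
    · refine hC s' (fun c hc => ?_) j hj
      rcases Finset.mem_insert.1 (hs' hc) with h5 | h5
      · exact absurd (h5 ▸ hc) his
      · exact h5
  choose g hg1 hg2 using hstep
  let C : ℕ → {C : Finset ℕ // Inv C} := fun n =>
    Nat.rec ⟨∅, h0⟩ (fun _ c => ⟨insert (g c) c.1, hg2 c⟩) n
  have hC : ∀ n, (C (n + 1)).1 = insert (g (C n)) (C n).1 := fun n => rfl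
  have hmem : ∀ n, ∀ i < n, g (C i) ∈ (C n).1 := by
    intro n
    induction n with
    | zero => intro i hi; omega
    | succ n ih =>
      intro i hi
      rw [hC]
      rcases (show i ≤ n by omega).eq_or_lt with rfl | h1
      · exact Finset.mem_insert_self _ _
      · exact Finset.mem_insert_of_mem (ih i h1)
  refine ⟨fun n => g (C n), ?_, ?_⟩
  · refine strictMono_nat_of_lt_succ fun n => ?_
    exact hg1 (C (n + 1)) _ (hmem (n + 1) n (Nat.lt_succ_self n))
  · intro s hs hcard
    -- `s` is contained in some `C n`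
    have h1 : ∃ n, s ⊆ (C n).1 := by
      have h2 : ∀ c ∈ s, ∃ i, g (C i) = c := fun c hc => hs hc
      choose! f hf using h2
      refine ⟨s.sup f + 1, fun c hc => ?_⟩
      rw [← hf c hc]
      exact hmem _ _ (Nat.lt_succ_of_le (Finset.le_sup hc))
    obtain ⟨n, hn⟩ := h1
    exact (C n).2 s hn 0 (by omega)

/-- Counting form: under the hypotheses of the previous theorem, if `P` is hereditary in the sense
that the subsets with `k` elements of a set `{ν i : i ∈ S}` with `Q` satisfy `P`, then such sets
have fewer than `k` elements. -/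
theorem card_lt_of_subseq {P : Finset ℕ → Prop} {k : ℕ} {ν : ℕ → ℕ} (hν : StrictMono ν)
    (h : ∀ s : Finset ℕ, (s : Set ℕ) ⊆ Set.range ν → s.card = k → ¬ P s) {S : Finset ℕ}
    (hS : ∀ s ⊆ S.image ν, s.card = k → P s) : S.card < k := by
  by_contra hcon
  have h1 : k ≤ (S.image ν).card := by
    rw [Finset.card_image_of_injective _ hν.injective]
    exact not_lt.1 hcon
  obtain ⟨s, hs, hc⟩ := Finset.exists_subset_card_eq h1
  refine h s ?_ hc (hS s hs hc)
  intro c hc
  obtain ⟨i, -, rfl⟩ := Finset.mem_image.1 (hs hc)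
  exact ⟨i, rfl⟩

end Vale.Agent.P129.H449
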